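import Vale.Agent.P088.H442.C.Defs
import Vale.Agent.P088.H952.CFRot

/-!
# P088, Theorem C, row C_GG: the conformal factor at every frequency
-/

open MeasureTheory Set
open scoped ContDiff Matrix

noncomputable section

namespace Vale.Agent.P088.H900

open Vale.Agent.P088.LR Vale.Agent.P088.LR.CC Vale.Agent.P088.LR.CF
open Vale.Agent.P088.LR.CF.H952

variable {n : ℕ}

section

variable {R : Matrix (Fin n) (Fin n) ℝ} (h : Rf R)

include h

theorem tr_one : tr R (fun _ => (1 : Matrix (Fin n) (Fin n) ℝ)) = fun _ => 1 := by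
  funext x
  unfold tr
  rw [Matrix.mul_one, mul_self_eq h]

omit h in
theorem smP_rho {φ : V n → ℝ} (hp : SmP φ) : SmP fun x => φ (rho R x) :=
  ⟨hp.1.comp (contDiff_rho R), fun _ => hp.2 _⟩

omit h in
theorem contDiff_cx {φ : V n → ℝ} (hφ : ContDiff ℝ ∞ φ) : ContDiff ℝ ∞ (cx φ) :=
  Complex.ofRealCLM.contDiff.comp hφ

/-- `div (t ∇ f)` for reflected data -/
theorem dv_tr_cx {t : MF n} (ht : SmM t) {f : V n → ℝ} (hf : ContDiff ℝ ∞ f) (x : V n) :
    dv (tr R t) (cx fun y => f (rho R y)) x = dv t (cx f) (rho R x) := by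
  have h1 : ContDiff ℝ ∞ (cx fun y => f (rho R y)) :=
    Complex.ofRealCLM.contDiff.comp (hf.comp (contDiff_rho R))
  rw [dv_tr h ht h1]
  have h2 : (fun x => cx (fun y => f (rho R y)) (rho R x)) = cx f := by
    funext x
    show ((f (rho R (rho R x)) : ℝ) : ℂ) = ((f x : ℝ) : ℂ)
    rw [rho_rho h]
  rw [h2]

theorem ba_tr {φ q₀ : V n → ℝ} (b : Ba φ q₀) :
    Ba (fun x => φ (rho R x)) fun x => q₀ (rho R x) where
  p := ⟨b.p.1.comp (contDiff_rho R), fun _ => b.p.2 _⟩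
  one := fun x hx => b.one _ fun hh => hx ((rho_mem_bal h).1 hh)
  sq := b.sq.comp (contDiff_rho R)
  eq := by
    intro x
    have h1 := dv_tr_cx h (t := fun _ => 1) (fun i j => contDiff_const) b.p.1 x
    rw [tr_one h] at h1
    rw [h1]
    exact b.eq _

omit h in
theorem tr_smul (σ : V n → ℝ) (t : MF n) :
    tr R (fun x => σ x • t x) = fun x => σ (rho R x) • tr R t x := by
  funext x
  unfold tr
  rw [Matrix.mul_smul, Matrix.smul_mul]

theorem bt_tr {Ω : Set (V n)} {φ q₀ : V n → ℝ} {t : MF n} {q : V n → ℝ} (b : Bt Ω φ q₀ t q) :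
    Bt (rho R ⁻¹' Ω) (fun x => φ (rho R x)) (fun x => q₀ (rho R x)) (tr R t)
      fun x => q (rho R x) where
  ba := ba_tr h b.ba
  op := b.op.preimage (contDiff_rho R).continuous
  reg := by
    have h1 : rho R ⁻¹' Ω = (hom h) ⁻¹' Ω := rfl
    rw [h1, ← (hom h).preimage_closure, ← (hom h).preimage_interior, b.reg]
  sub := fun x hx => (rho_mem_bal h).1 (b.sub hx)
  sm := smM_tr h b.sm
  sy := symm_tr h b.sy
  off := by
    intro x hx
    have h1 : rho R x ∉ Ω := hx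
    unfold tr
    rw [b.off _ h1, Matrix.mul_one, mul_self_eq h]
  sq := b.sq.comp (contDiff_rho R)
  eq := by
    intro x
    rw [dv_tr_cx h b.sm b.ba.p.1 x]
    exact b.eq _
  st := by
    have hσ : ContDiff ℝ ∞ fun x => φ x ^ 2 := b.ba.p.1.pow 2
    have h1 : SmM fun x => φ x ^ 2 • t x := by
      intro i j
      have h2 : (fun x => (φ x ^ 2 • t x) i j) = fun x => φ x ^ 2 * t x i j := by
        funext x
        rw [Matrix.smul_apply, smul_eq_mul]
      rw [h2]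
      exact hσ.mul (b.sm i j)
    have h2 := st2_tr h (smM_sc hσ) h1 b.st
    rw [tr_sc h, tr_smul] at h2
    exact h2

theorem one_apply_rf (i j : Fin n) :
    (1 : Matrix (Fin n) (Fin n) ℝ) i j =
      ∑ a, ∑ b, R i a * (1 : Matrix (Fin n) (Fin n) ℝ) a b * R j b := by
  have h1 := tr_apply h (fun _ => (1 : Matrix (Fin n) (Fin n) ℝ)) (0 : V n) i j
  rw [tr_one h] at h1
  exact h1

theorem ent_tr (t : MF n) (i j : Fin n) (x : V n) :
    ent (tr R t) i j x = ∑ a, ∑ b, (R i a : ℂ) * R j b * ent t a b (rho R x) := by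
  unfold ent
  rw [tr_apply h]
  nth_rewrite 1 [one_apply_rf h i j]
  rw [← Finset.sum_sub_distrib]
  push_cast
  refine Finset.sum_congr rfl fun a _ => ?_
  rw [← Finset.sum_sub_distrib]
  refine Finset.sum_congr rfl fun b _ => ?_
  ring

theorem cl_ent_tr (hn : 1 ≤ n) {t : MF n} (ht : SmM t) {M : ℕ} {a : ℝ}
    (hc : ∀ i j, Cl M a (ent t i j)) (i j : Fin n) :
    Cl M ((n : ℝ) ^ (M + 2) * a) (ent (tr R t) i j) := by
  have hs : ∀ i j, ContDiff ℝ ∞ (ent t i j) := fun i j =>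
    Complex.ofRealCLM.contDiff.comp ((ht i j).sub contDiff_const)
  have h1 : ent (tr R t) i j = fun x => ∑ a, (R i a : ℂ) *
      (fun y => ∑ b, (R j b : ℂ) * ent t a b (rho R y)) x := by
    funext x
    rw [ent_tr h]
    refine Finset.sum_congr rfl fun a _ => ?_
    rw [Finset.mul_sum]
    refine Finset.sum_congr rfl fun b _ => ?_
    ring
  rw [h1]
  have h3 : ∀ a', Cl M ((n : ℝ) * ((n : ℝ) ^ M * a))
      (fun y => ∑ b, (R j b : ℂ) * ent t a' b (rho R y)) := by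
    intro a'
    exact cl_sum (f := fun b y => ent t a' b (rho R y)) (c := fun b => R j b)
      (fun b => (hs a' b).comp (contDiff_rho R)) (fun b => abs_le h j b)
      (fun b => cl_rho h hn (hs a' b) (hc a' b))
  have h4 := cl_sum (f := fun a' y => ∑ b, (R j b : ℂ) * ent t a' b (rho R y))
    (c := fun a' => R i a')
    (fun a' => ContDiff.sum fun b _ => contDiff_const.mul ((hs a' b).comp (contDiff_rho R)))
    (fun a' => abs_le h i a') h3
  refine cl_mono h4 (le_of_eq ?_)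
  ring

theorem sz_tr (hn : 1 ≤ n) {t : MF n} (ht : SmM t) {q₀ q : V n → ℝ} (hq₀ : ContDiff ℝ ∞ q₀)
    (hq : ContDiff ℝ ∞ q) {M : ℕ} {a : ℝ} (hc : Sz M a t q₀ q) :
    Sz M ((n : ℝ) ^ (M + 2) * a) (tr R t) (fun x => q₀ (rho R x)) fun x => q (rho R x) := by
  refine ⟨cl_ent_tr h hn ht hc.1, ?_⟩
  have h1 := cl_rho h hn (f := fun x => cx q x - cx q₀ x)
    ((Complex.ofRealCLM.contDiff.comp hq).sub (Complex.ofRealCLM.contDiff.comp hq₀)) hc.2
  have hn1 : (1 : ℝ) ≤ n := by exact_mod_cast hn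
  refine cl_mono h1 (mul_le_mul_of_nonneg_right (pow_le_pow_right₀ hn1 (by omega))
    (cl_nonneg hc.2))

theorem gf_tr {φ f : V n → ℝ} (hφ : ContDiff ℝ ∞ φ) (hf : ContDiff ℝ ∞ f) (x : V n) :
    gf (fun x => φ (rho R x)) (fun x => f (rho R x)) x = gf φ f (rho R x) := by
  unfold gf
  have hσ : ContDiff ℝ ∞ fun x => φ x ^ 2 := hφ.pow 2
  have h1 := dv_tr_cx h (smM_sc hσ) hf x
  rw [tr_sc h] at h1
  rw [h1]

theorem near_tr (t : MF n) (f : V n → ℝ) {b : ℝ}
    (hb : ∀ i j x, ‖ent t i j x - (if i = j then (f x : ℂ) else 0)‖ ≤ b) (i j : Fin n) (x : V n) :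
    ‖ent (tr R t) i j x - (if i = j then (f (rho R x) : ℂ) else 0)‖ ≤ (n : ℝ) ^ 2 * b := by
  have h1 : (if i = j then (f (rho R x) : ℂ) else 0) = ∑ a, ∑ b, (R i a : ℂ) * R j b *
      (if a = b then (f (rho R x) : ℂ) else 0) := by
    have h2 : ∑ a, (R i a : ℂ) * R a j = if i = j then 1 else 0 := by
      have h3 := h.sq i j
      have h4 : ∑ a, (R i a : ℂ) * R a j = ((∑ a, R i a * R a j : ℝ) : ℂ) := by
        push_cast
        rfl
      rw [h4, h3]
      split_ifs <;> simp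
    simp only [mul_ite, mul_zero, Finset.sum_ite_eq, Finset.mem_univ, if_true]
    rw [← Finset.sum_mul]
    have h5 : ∑ a, (R i a : ℂ) * R j a = if i = j then 1 else 0 := by
      rw [← h2]
      exact Finset.sum_congr rfl fun a _ => by rw [h.sy j a]
    rw [h5]
    split_ifs <;> simp
  rw [ent_tr h, h1, ← Finset.sum_sub_distrib]
  simp only [← Finset.sum_sub_distrib, ← mul_sub]
  refine (norm_sum_le _ _).trans ?_
  refine (Finset.sum_le_sum fun a _ => (norm_sum_le _ _).trans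
    (Finset.sum_le_sum (g := fun _ => b) fun c _ => ?_)).trans ?_
  · rw [norm_mul, norm_mul, Complex.norm_real, Complex.norm_real, Real.norm_eq_abs,
      Real.norm_eq_abs]
    refine (mul_le_of_le_one_left (norm_nonneg _) ?_).trans (hb a c _)
    exact mul_le_one₀ (abs_le h i a) (abs_nonneg _) (abs_le h j c)
  · simp only [Finset.sum_const, Finset.card_univ, Fintype.card_fin, nsmul_eq_mul]
    exact le_of_eq (by ring)

end

/-- an orthonormal basis whose member `k₀` is the direction of `ξ`, as a matrix -/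
theorem exists_basis (ξ : V n) (hξ : 0 < nr ξ) (k₀ : Fin n) : ∃ B : Fin n → Fin n → ℝ,
    (∀ a c, ∑ i, B a i * B c i = if a = c then 1 else 0) ∧ ∀ i, nr ξ * B k₀ i = ξ i := by
  set x : EuclideanSpace ℝ (Fin n) := WithLp.toLp 2 ξ with hx
  have hnx : ‖x‖ = nr ξ := by
    rw [EuclideanSpace.norm_eq]
    simp [nr, hx]
  set v : Fin n → EuclideanSpace ℝ (Fin n) := fun _ => (nr ξ)⁻¹ • x with hv
  have hv1 : ∀ a, ‖v a‖ = 1 := by
    intro a
    simp only [hv, norm_smul, hnx, norm_inv, Real.norm_eq_abs, abs_of_pos hξ]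
    exact inv_mul_cancel₀ hξ.ne'
  have hor : Orthonormal ℝ (({k₀} : Set (Fin n)).domRestrict v) := by
    constructor
    · intro a
      exact hv1 k₀
    · intro a b hab
      exact absurd (Subtype.ext (by
        have h1 := a.2
        have h2 := b.2
        simp only [Set.mem_singleton_iff] at h1 h2
        rw [h1, h2])) hab
  obtain ⟨b, hb⟩ := hor.exists_orthonormalBasis_extension_of_card_eq (by simp)
  have hbk : b k₀ = v k₀ := hb k₀ rfl
  have h1 : ∀ a c, ∑ i, b a i * b c i = if a = c then (1 : ℝ) else 0 := by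
    intro a c
    have := b.inner_eq_ite a c
    rw [PiLp.inner_apply] at this
    simp only [RCLike.inner_apply, conj_trivial] at this
    rw [← this]
    exact Finset.sum_congr rfl fun i _ => mul_comm _ _
  refine ⟨fun a i => b a i, h1, ?_⟩
  intro i
  simp only [hbk, hv, PiLp.smul_apply, smul_eq_mul]
  rw [← mul_assoc, mul_inv_cancel₀ hξ.ne', one_mul]

/-- two orthonormal vectors orthogonal to `ξ` -/
theorem exists_pair (hn : 3 ≤ n) (ξ : V n) : ∃ e p : V n, nr e = 1 ∧ nr p = 1 ∧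
    ∑ j, e j * p j = 0 ∧ ∑ j, e j * ξ j = 0 ∧ ∑ j, p j * ξ j = 0 := by
  have hnr0 : 0 ≤ nr ξ := Real.sqrt_nonneg _
  set k0 : Fin n := ⟨0, by omega⟩
  set k1 : Fin n := ⟨1, by omega⟩
  set k2 : Fin n := ⟨2, by omega⟩
  have h01 : k1 ≠ k0 := by simp [k0, k1]
  have h02 : k2 ≠ k0 := by simp [k0, k2]
  have h12 : k1 ≠ k2 := by simp [k1, k2]
  have key : ∀ ζ : V n, 0 < nr ζ → ∃ e p : V n, nr e = 1 ∧ nr p = 1 ∧
      ∑ j, e j * p j = 0 ∧ ∑ j, e j * ζ j = 0 ∧ ∑ j, p j * ζ j = 0 := by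
    intro ζ hζ
    obtain ⟨B, h1, h2⟩ := exists_basis ζ hζ k0
    have h3 : ∀ k, nr (B k) = 1 := by
      intro k
      unfold nr
      have := h1 k k
      rw [if_pos rfl] at this
      simp only [pow_two]
      rw [this, Real.sqrt_one]
    have h4 : ∀ k, k ≠ k0 → ∑ j, B k j * ζ j = 0 := by
      intro k hk
      have := h1 k k0
      rw [if_neg hk] at this
      have h5 : ∑ j, B k j * ζ j = nr ζ * ∑ j, B k j * B k0 j := by
        rw [Finset.mul_sum]
        refine Finset.sum_congr rfl fun j _ => ?_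
        rw [← h2 j]
        ring
      rw [h5, this, mul_zero]
    refine ⟨B k1, B k2, h3 _, h3 _, ?_, h4 _ h01, h4 _ h02⟩
    have := h1 k1 k2
    rwa [if_neg h12] at this
  rcases hnr0.lt_or_eq with hpos | hz
  · exact key ξ hpos
  · have hξ0 : ∀ j, ξ j = 0 := by
      have h5 : ∑ j, ξ j ^ 2 = 0 := by
        have h6 : (0 : ℝ) ≤ ∑ j, ξ j ^ 2 := Finset.sum_nonneg fun j _ => sq_nonneg _
        exact (Real.sqrt_eq_zero h6).1 hz.symm
      intro j
      have h7 := (Finset.sum_eq_zero_iff_of_nonneg fun j _ => sq_nonneg (ξ j)).1 h5 j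
        (Finset.mem_univ j)
      exact pow_eq_zero_iff (two_ne_zero) |>.1 h7
    have h8 : 0 < nr (Pi.single k0 (1 : ℝ) : V n) := by
      unfold nr
      refine Real.sqrt_pos.2 ?_
      refine Finset.sum_pos' (fun j _ => sq_nonneg _) ⟨k0, Finset.mem_univ _, ?_⟩
      simp
    obtain ⟨e, p, a1, a2, a3, _, _⟩ := key _ h8
    refine ⟨e, p, a1, a2, a3, ?_, ?_⟩
    · exact Finset.sum_eq_zero fun j _ => by rw [hξ0 j, mul_zero]
    · exact Finset.sum_eq_zero fun j _ => by rw [hξ0 j, mul_zero]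

/-- (C_GG) for functions supported in the ball -/
def GGb : Prop := ∀ n : ℕ, 3 ≤ n → ∀ B : ℝ, ∃ C : ℝ, 1 ≤ C ∧ ∀ (ξ : V n) (X : ℝ), C ≤ X →
  2 * nr ξ ≤ X → ∀ (Ω : Set (V n)) (φ q₀ : V n → ℝ) (t : MF n) (q : V n → ℝ),
  Bt Ω φ q₀ t q → Cl (n + 1) B (cx q₀) → Cl 1 B (cx φ) → (∀ x, (φ x)⁻¹ ≤ B) → ∀ a : ℝ, 0 ≤ a →
  Sz (n + 1) a t q₀ q → C * X * a ≤ 1 → ∀ f : V n → ℝ, ContDiff ℝ ∞ f →
  (∀ x ∉ bal n, f x = 0) → Cl 2 a (cx f) → ∀ b : ℝ, 0 ≤ b →
  (∀ i j x, ‖ent t i j x - (if i = j then (f x : ℂ) else 0)‖ ≤ b) →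
  ‖ft (gf φ f) ξ‖ ≤ C * (a / X + X ^ 2 * b + X ^ 3 * a ^ 2)

theorem ggb : RowSFC → GGb := by
  intro hSF n hn B
  set N : ℝ := (n : ℝ) ^ (n + 3) with hN
  have hn0 : 1 ≤ n := by omega
  have hn1 : (1 : ℝ) ≤ n := by exact_mod_cast hn0
  have hN1 : 1 ≤ N := one_le_pow₀ hn1
  obtain ⟨C₁, hC₁, H₁⟩ := hSF n (N * B)
  have hNC : C₁ ≤ N ^ 2 * C₁ := le_mul_of_one_le_left (by linarith) (one_le_pow₀ hN1)
  refine ⟨N ^ 2 * C₁, hC₁.trans hNC, ?_⟩
  intro ξ X hX hξ Ω φ q₀ t q hB hq0 hφ hφi a ha hS hCa f hf hf0 hf2 b hb hnear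
  have hB0 : 0 ≤ B := cl_nonneg hφ
  have hX1 : 1 ≤ X := hC₁.trans (hNC.trans hX)
  set i₀ : Fin n := ⟨0, hn0⟩
  obtain ⟨e, p, he, hp, hep, heξ, hpξ⟩ := exists_pair hn ξ
  obtain ⟨R, h, hR⟩ := exists_refl i₀ e he
  have hRi : ∀ ζ : V n, (R *ᵥ ζ) i₀ = ∑ j, e j * ζ j := by
    intro ζ
    simp only [Matrix.mulVec, dotProduct]
    exact Finset.sum_congr rfl fun j _ => by rw [h.sy i₀ j, hR]
  have hpow : ∀ m : ℕ, m ≤ n + 3 → (n : ℝ) ^ m ≤ N := fun m hm => pow_le_pow_right₀ hn1 hm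
  have key := H₁ i₀ (R *ᵥ ξ) (R *ᵥ p) (by rw [hRi, heξ]) (by rw [hRi, hep])
    (by rw [nr_mv h, hp])
    (by
      have h1 := dot h (R *ᵥ p) ξ
      rw [mv_mv h] at h1
      rw [h1, hpξ])
    X (hNC.trans hX) (by rw [nr_mv h]; exact hξ)
    (rho R ⁻¹' Ω) (fun x => φ (rho R x)) (fun x => q₀ (rho R x)) (tr R t) (fun x => q (rho R x))
    (bt_tr h hB)
    (cl_mono (cl_rho h hn0 (contDiff_cx hB.ba.sq) hq0)
      (mul_le_mul_of_nonneg_right (hpow _ (by omega)) hB0))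
    (cl_mono (cl_rho h hn0 (contDiff_cx hB.ba.p.1) hφ)
      (mul_le_mul_of_nonneg_right (hpow _ (by omega)) hB0))
    (fun x => (hφi _).trans (le_mul_of_one_le_left hB0 hN1))
    (N * a) (by positivity)
    (by
      have h1 := sz_tr h hn0 hB.sm hB.ba.sq hB.sq hS
      exact h1)
    (by
      calc C₁ * X * (N * a) = N * C₁ * (X * a) := by ring
        _ ≤ N ^ 2 * C₁ * (X * a) := by
          refine mul_le_mul_of_nonneg_right ?_ (by positivity)
          refine mul_le_mul_of_nonneg_right ?_ (by linarith)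
          nlinarith
        _ = N ^ 2 * C₁ * X * a := by ring
        _ ≤ 1 := hCa)
    (fun x => f (rho R x)) (hf.comp (contDiff_rho R))
    (by
      intro x hx
      refine hf0 _ fun hh => hx ?_
      exact bal_sub_core ((rho_mem_bal h).1 hh))
    (cl_mono (cl_rho h hn0 (contDiff_cx hf) hf2)
      (mul_le_mul_of_nonneg_right (hpow _ (by omega)) ha))
    (N * b) (by positivity)
    (by
      intro i j x
      refine (near_tr h t f hnear i j x).trans ?_
      exact mul_le_mul_of_nonneg_right (hpow _ (by omega)) hb)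
  have h2 : (gf (fun x => φ (rho R x)) fun x => f (rho R x)) = fun x => gf φ f (rho R x) := by
    funext x
    exact gf_tr h hB.ba.p.1 hf x
  rw [h2, ft_rho h, mv_mv h, norm_mul, norm_ph, one_mul] at key
  refine key.trans ?_
  have h3 : N ≤ N ^ 2 := by nlinarith
  have h4 : 0 ≤ a / X := by positivity
  have h5 : 0 ≤ X ^ 2 * b := by positivity
  have h6 : 0 ≤ X ^ 3 * a ^ 2 := by positivity
  calc C₁ * (N * a / X + X ^ 2 * (N * b) + X ^ 3 * (N * a) ^ 2)
      = C₁ * (N * (a / X) + N * (X ^ 2 * b) + N ^ 2 * (X ^ 3 * a ^ 2)) := by ring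
    _ ≤ C₁ * (N ^ 2 * (a / X) + N ^ 2 * (X ^ 2 * b) + N ^ 2 * (X ^ 3 * a ^ 2)) := by
      refine mul_le_mul_of_nonneg_left ?_ (by linarith)
      have h7 := mul_le_mul_of_nonneg_right h3 h4
      have h8 := mul_le_mul_of_nonneg_right h3 h5
      linarith
    _ = N ^ 2 * C₁ * (a / X + X ^ 2 * b + X ^ 3 * a ^ 2) := by ring

/-- (C_GG) -/
theorem gg : RowSFC → RowGGC := ggb

end Vale.Agent.P088.H900
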