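import Vale.Agent.P088.H900.GG
import Vale.Agent.P088.H833.D.Defs

/-!
# P088, Theorem D, row D_GG: all frequencies, by reflections about the centre of the cube
-/

open MeasureTheory Set
open scoped ContDiff Matrix

noncomputable section

namespace Vale.Agent.P088.H900

open Vale.Agent.P088.LR Vale.Agent.P088.LR.CC Vale.Agent.P088.LR.CD Vale.Agent.P088.LR.CF
open Vale.Agent.P088.LR.CF.H952

variable {n : ℕ}

section

variable {R : Matrix (Fin n) (Fin n) ℝ} (h : Rf R)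

include h

/-- `B2` is invariant under the reflections -/
theorem b2_tr {Ω : Set (V n)} {φ q₀ φ₂ : V n → ℝ} {t : MF n} {q : V n → ℝ}
    (b : B2 Ω φ q₀ φ₂ t q) :
    B2 (rho R ⁻¹' Ω) (fun x => φ (rho R x)) (fun x => q₀ (rho R x)) (fun x => φ₂ (rho R x))
      (tr R t) fun x => q (rho R x) where
  ba := ba_tr h b.ba
  op := b.op.preimage (contDiff_rho R).continuous
  reg := by
    have h1 : rho R ⁻¹' Ω = (hom h) ⁻¹' Ω := rfl
    rw [h1, ← (hom h).preimage_closure, ← (hom h).preimage_interior, b.reg]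
  sub := fun x hx => (rho_mem_bal h).1 (b.sub hx)
  p₂ := smP_rho b.p₂
  off₂ := by
    intro x hx
    have h1 : rho R x ∉ Ω := hx
    exact b.off₂ _ h1
  sm := smM_tr h b.sm
  sy := symm_tr h b.sy
  off := by
    intro x hx
    have h1 : rho R x ∉ Ω := hx
    unfold tr
    rw [b.off _ h1, Matrix.mul_one, mul_self_eq h]
  sq := b.sq.comp (contDiff_rho R)
  eq := by
    intro x
    rw [dv_tr_cx h b.sm b.p₂.1 x]
    exact b.eq _
  st := by
    have hσ : ContDiff ℝ ∞ fun x => φ x ^ 2 := b.ba.p.1.pow 2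
    have hσ₂ : ContDiff ℝ ∞ fun x => φ₂ x ^ 2 := b.p₂.1.pow 2
    have h1 : SmM fun x => φ₂ x ^ 2 • t x := by
      intro i j
      have h2 : (fun x => (φ₂ x ^ 2 • t x) i j) = fun x => φ₂ x ^ 2 * t x i j := by
        funext x
        rw [Matrix.smul_apply, smul_eq_mul]
      rw [h2]
      exact hσ₂.mul (b.sm i j)
    have h2 := st2_tr h (smM_sc hσ) h1 b.st
    rw [tr_sc h, tr_smul] at h2
    exact h2

end

/-- (D_GG) -/
theorem ggd : RowSFD → RowGGD := by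
  intro hSF n hn B
  set N : ℝ := (n : ℝ) ^ (n + 3) with hN
  have hn0 : 1 ≤ n := by omega
  have hn1 : (1 : ℝ) ≤ n := by exact_mod_cast hn0
  have hN1 : 1 ≤ N := one_le_pow₀ hn1
  obtain ⟨C₁, hC₁, H₁⟩ := hSF n (N * B)
  have hNC : C₁ ≤ N * C₁ := le_mul_of_one_le_left (by linarith) hN1
  refine ⟨N * C₁, hC₁.trans hNC, ?_⟩
  intro ξ X hX hξ Ω φ q₀ φ₂ t q hB hq0 hq a ha hS hCa
  have hB0 : 0 ≤ B := cl_nonneg hq0
  have hX1 : 1 ≤ X := hC₁.trans (hNC.trans hX)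
  set i₀ : Fin n := ⟨0, hn0⟩
  obtain ⟨e, p, he, hp, hep, heξ, hpξ⟩ := exists_pair hn ξ
  obtain ⟨R, h, hR⟩ := exists_refl i₀ e he
  have hRi : ∀ ζ : V n, (R *ᵥ ζ) i₀ = ∑ j, e j * ζ j := by
    intro ζ
    simp only [Matrix.mulVec, dotProduct]
    exact Finset.sum_congr rfl fun j _ => by rw [h.sy i₀ j, hR]
  have hpow : ∀ m : ℕ, m ≤ n + 3 → (n : ℝ) ^ m ≤ N := fun m hm => pow_le_pow_right₀ hn1 hm
  have key := H₁ i₀ (R *ᵥ ξ) (R *ᵥ p) (by rw [hRi, heξ]) (by rw [hRi, hep])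
    (by rw [nr_mv h, hp])
    (by
      have h1 := dot h (R *ᵥ p) ξ
      rw [mv_mv h] at h1
      rw [h1, hpξ])
    X (hNC.trans hX) (by rw [nr_mv h]; exact hξ)
    (rho R ⁻¹' Ω) (fun x => φ (rho R x)) (fun x => q₀ (rho R x)) (fun x => φ₂ (rho R x))
    (tr R t) (fun x => q (rho R x)) (b2_tr h hB)
    (cl_mono (cl_rho h hn0 (contDiff_cx hB.ba.sq) hq0)
      (mul_le_mul_of_nonneg_right (hpow _ (by omega)) hB0))
    (cl_mono (cl_rho h hn0 (contDiff_cx hB.sq) hq)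
      (mul_le_mul_of_nonneg_right (hpow _ (by omega)) hB0))
    (N * a) (by positivity)
    (by
      intro i j
      exact cl_ent_tr h hn0 hB.sm hS i j)
    (by
      calc C₁ * X * (N * a) = N * C₁ * X * a := by ring
        _ ≤ 1 := hCa)
  have h2 : ft (fun x => cx (fun x => q (rho R x)) x - cx (fun x => q₀ (rho R x)) x) (R *ᵥ ξ) =
      ph R (R *ᵥ ξ) * ft (fun x => cx q x - cx q₀ x) (R *ᵥ (R *ᵥ ξ)) :=
    ft_rho h (fun y => cx q y - cx q₀ y) (R *ᵥ ξ)
  rw [h2, mv_mv h, norm_mul, norm_ph, one_mul] at key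
  refine key.trans ?_
  have h4 : 0 ≤ 1 / X := by positivity
  have h5 : 0 ≤ X ^ 2 * a := by positivity
  calc C₁ * (1 / X + X ^ 2 * (N * a)) = C₁ * (1 * (1 / X) + N * (X ^ 2 * a)) := by ring
    _ ≤ C₁ * (N * (1 / X) + N * (X ^ 2 * a)) := by
      refine mul_le_mul_of_nonneg_left ?_ (by linarith)
      have h7 := mul_le_mul_of_nonneg_right hN1 h4
      linarith
    _ = N * C₁ * (1 / X + X ^ 2 * a) := by ring

end Vale.Agent.P088.H900
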