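import Vale.Agent.P088.H738.E2.Defs
import Vale.Agent.P088.H738.DTop
import Vale.Agent.P088.H639.St2

/-!
# P088, theorem E by compactness, row (I2): isotropic uniqueness
-/

open MeasureTheory Set Filter Topology
open scoped ContDiff Matrix

noncomputable section

namespace Vale.Agent.P088.H900

open Vale.Agent.P088.LR Vale.Agent.P088.LR.B Vale.Agent.P088.LR.CF Vale.Agent.P088.H639
  Vale.Agent.P088.LR.E Vale.Agent.P088.LR.E2

variable {n : ℕ}

/-- `St2` only sees the values in `Ω`. -/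
theorem st2_cong {Ω : Set (V n)} (hO : IsOpen Ω) {s₁ s t : MF n} (h : ∀ x ∈ Ω, s x = t x)
    (hS : St2 Ω s₁ t) : St2 Ω s₁ s := by
  intro U W hU hW hU0 hW0
  have hdv : ∀ x ∈ Ω, dv t W x = 0 := by
    intro x hx
    rw [← hW0 x hx]
    unfold dv
    refine Finset.sum_congr rfl fun i _ => ?_
    unfold pd
    have : (fun y => ∑ j, (t y i j : ℂ) * fderiv ℝ W y (Pi.single j 1)) =ᶠ[nhds x]
        (fun y => ∑ j, (s y i j : ℂ) * fderiv ℝ W y (Pi.single j 1)) := by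
      filter_upwards [hO.mem_nhds hx] with y hy
      rw [h y hy]
    rw [this.fderiv_eq]
  rw [← hS U W hU hW hU0 hdv]
  unfold bl
  refine setIntegral_congr_fun hO.measurableSet fun x hx => ?_
  simp only [h x hx]

theorem bdd_core : Bornology.IsBounded (core n) := by
  refine (Metric.isBounded_Icc (fun _ : Fin n => (1 / 4 : ℝ)) (fun _ => 3 / 4)).subset
    fun x hx => ?_
  exact ⟨fun j => (hx j).1, fun j => (hx j).2⟩

theorem sqrtP {σ : V n → ℝ} (h : SmP σ) : SmP (fun x => √(σ x)) :=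
  ⟨ContDiff.sqrt h.1 fun x => (h.2 x).ne', fun x => Real.sqrt_pos.2 (h.2 x)⟩

/-- A positive function which is `1` off the ball: bounds of all orders, and of the inverse. -/
theorem exists_bd {φ : V n → ℝ} (hφ : SmP φ) (h1 : ∀ x ∉ bal n, φ x = 1) (k : ℕ) :
    ∃ B : ℝ, Cl k B (cx φ) ∧ ∀ x, (φ x)⁻¹ ≤ B := by
  obtain ⟨B₁, hB₁, hB₁'⟩ := CD.H738.exists_cl hφ.1 1 h1 k
  have hinv : ContDiff ℝ ∞ (fun x => (φ x)⁻¹) := hφ.1.inv fun x => (hφ.2 x).ne'
  obtain ⟨B₂, hB₂, hB₂'⟩ := CD.H738.exists_cl hinv 1 (fun x hx => by rw [h1 x hx, inv_one]) 0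
  refine ⟨max B₁ B₂, CD.H738.cl_mono ((CD.H738.cl_cx hφ.1).2 hB₁') le_rfl (le_max_left _ _),
    fun x => ?_⟩
  have h := hB₂' 0 le_rfl x
  rw [norm_iteratedFDeriv_zero, Real.norm_eq_abs] at h
  exact ((le_abs_self _).trans h).trans (le_max_right _ _)

/-- Uniqueness for two isotropic tensors which agree off a regular open subset of the ball. -/
theorem uniq (hSM : CD.RowSMD) (hBA : CC.RowBAC) (hn : 3 ≤ n) {Ω : Set (V n)} (hO : IsOpen Ω)
    (hreg : interior (closure Ω) = Ω) (hsub : Ω ⊆ bal n) {σ τ : V n → ℝ} (hσ : SmP σ)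
    (hτ : SmP τ) (hσ1 : ∀ x ∉ bal n, σ x = 1) (hoff : ∀ x ∉ Ω, τ x = σ x)
    (hst : St2 Ω (sc σ) (sc τ)) : ∀ x, τ x = σ x := by
  obtain ⟨k, H⟩ := hSM n hn
  set φ : V n → ℝ := fun x => √(σ x) with hφd
  set φ₂ : V n → ℝ := fun x => √(τ x) with hφ₂d
  have hφ : SmP φ := sqrtP hσ
  have hφ₂ : SmP φ₂ := sqrtP hτ
  have hφ1 : ∀ x ∉ bal n, φ x = 1 := fun x hx => by
    rw [hφd]; simp only; rw [hσ1 x hx, Real.sqrt_one]
  have hφ₂1 : ∀ x ∉ bal n, φ₂ x = 1 := fun x hx => by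
    rw [hφ₂d]; simp only; rw [hoff x (fun h => hx (hsub h)), hσ1 x hx, Real.sqrt_one]
  have hs1 : (fun x => φ x ^ 2) = σ := funext fun x => Real.sq_sqrt (hσ.2 x).le
  have hs2 : (fun x => φ₂ x ^ 2) = τ := funext fun x => Real.sq_sqrt (hτ.2 x).le
  obtain ⟨q₀, hba⟩ := hBA.1 φ hφ hφ1
  have ht : SmM (fun _ : V n => (1 : Matrix (Fin n) (Fin n) ℝ)) := fun i j => contDiff_const
  obtain ⟨q, hq, hqe⟩ := hBA.2.1 φ₂ hφ₂ (fun _ => 1) ht
  obtain ⟨B, hB, hBi⟩ := exists_bd hφ₂ hφ₂1 k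
  have hst' : St2 Ω (sc (fun x => φ x ^ 2))
      (fun x => φ₂ x ^ 2 • (fun _ => (1 : Matrix (Fin n) (Fin n) ℝ)) x) := by
    rw [hs1]
    have : (fun x => φ₂ x ^ 2 • (fun _ => (1 : Matrix (Fin n) (Fin n) ℝ)) x) = sc τ := by
      funext x
      have h : φ₂ x ^ 2 = τ x := congrFun hs2 x
      show φ₂ x ^ 2 • (1 : Matrix (Fin n) (Fin n) ℝ) = τ x • (1 : Matrix (Fin n) (Fin n) ℝ)
      rw [h]
    rw [this]
    exact hst
  have hB2 : CD.B2 Ω φ q₀ φ₂ (fun _ => 1) q :=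
    ⟨hba, hO, hreg, hsub, hφ₂, fun x hx => by rw [hφd, hφ₂d]; simp only; rw [hoff x hx], ht,
      fun x => Matrix.isSymm_one, fun x _ => rfl, hq, hqe, hst'⟩
  have hent : ∀ i j, ∀ ε : ℝ, 0 < ε → Cl k ε (ent (fun _ : V n => (1 : Matrix (Fin n) (Fin n) ℝ))
      i j) := by
    intro i j ε hε l _ x
    have h0 : ent (fun _ : V n => (1 : Matrix (Fin n) (Fin n) ℝ)) i j = fun _ => 0 := by
      funext x
      simp [ent]
    rw [h0]
    rcases Nat.eq_zero_or_pos l with h | h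
    · subst h
      simpa using hε.le
    · rw [iteratedFDeriv_const_of_ne (by omega)]
      simpa using hε.le
  have hle : ∀ x, ∀ η : ℝ, 0 < η → |φ₂ x - φ x| ≤ η := by
    intro x η hη
    obtain ⟨ε, hε, h⟩ := H φ q₀ hba B η hη
    exact h Ω φ₂ (fun _ => 1) q hB2 hB hBi (fun i j => hent i j ε hε) x
  intro x
  have h0 : |φ₂ x - φ x| ≤ 0 := le_of_forall_pos_le_add fun η hη => by
    rw [zero_add]; exact hle x η hη
  have h1 : φ₂ x = φ x := by
    have := abs_nonpos_iff.1 h0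
    linarith
  have e1 : φ x ^ 2 = σ x := congrFun hs1 x
  have e2 : φ₂ x ^ 2 = τ x := congrFun hs2 x
  rw [← e1, ← e2, h1]

/-- **(I2)** isotropic uniqueness up to the boundary. -/
theorem iso (hISB : RowISB) (hSM : CD.RowSMD) (hBA : CC.RowBAC) (weak : RowWEAK) (hT : RowTOPO)
    (hE : RowEXT) : E2.RowISO := by
  intro n hn ρ hρ hρb σ ψ hσ hψ hσ1 hψ1 hSE
  obtain ⟨hO, hOc, hfr, hcl, hic, hde⟩ := hT ρ hρ
  have hOb : Om ρ ⊆ bal n := by
    intro x hx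
    by_contra h
    have h1 : 0 < ρ x := hx
    rw [hρb x h] at h1
    linarith
  have hbd : Bornology.IsBounded (Om ρ) := bdd_core.subset hOc
  have hI := hISB hn ρ hρ σ ψ hσ hψ hσ1 hψ1 hSE
  set e : V n → ℝ := fun x => if 0 < ρ x then ψ x - σ x else 0 with hed
  have he : ContDiff ℝ ∞ e := (hE ρ hρ (fun x => ψ x - σ x) (hψ.1.sub hσ.1) hI).1
  set τ : V n → ℝ := fun x => σ x + e x with hτd
  have hτin : ∀ x ∈ Om ρ, τ x = ψ x := by
    intro x hx
    have hx' : 0 < ρ x := hx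
    simp only [hτd, hed, if_pos hx']
    ring
  have hτoff : ∀ x ∉ Om ρ, τ x = σ x := by
    intro x hx
    have hx' : ¬ 0 < ρ x := hx
    simp only [hτd, hed, if_neg hx', add_zero]
  have hτ : SmP τ := by
    refine ⟨hσ.1.add he, fun x => ?_⟩
    by_cases hx : x ∈ Om ρ
    · rw [hτin x hx]; exact hψ.2 x
    · rw [hτoff x hx]; exact hσ.2 x
  have hst : St2 (Om ρ) (sc σ) (sc τ) := by
    refine st2_cong hO (t := sc ψ) (fun x hx => by simp only [sc]; rw [hτin x hx]) ?_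
    exact st2_of_SE weak hO hbd (smM_sc442 hσ.1) (symm_sc442 σ)
      (fun x => (posDef_sc442 hσ.2 x).posSemidef) (smM_sc442 hψ.1) (symm_sc442 ψ)
      (fun x => (posDef_sc442 hψ.2 x).posSemidef) hSE
  have hall := uniq hSM hBA hn hO hic hOb hσ hτ hσ1 hτoff hst
  intro x hx
  rcases hx.lt_or_eq with h | h
  · rw [← hτin x h]; exact hall x
  · obtain ⟨g, _, hg⟩ := hI 1
    have h2 := hg x
    rw [← h] at h2
    simp only [pow_one, zero_mul] at h2
    linarith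

end Vale.Agent.P088.H900

end
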